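import Mathlib
import Vale.Agent.Lib.P166.Main

open MeasureTheory Filter Topology Vale.Agent.Lib.P166

/-- For two spectrum sequences with the same limit measure `μ` and the same edges, the difference
of the Haar averaged pressures tends to `0`: asymptotically the averaged pressure depends only on
`(β, μ)`. No restriction on the support of `μ`: gaps with `o(N)` eigenvalues inside are allowed. -/
theorem Vale.Agent.Results.P166.A_only_mu.result
    (μ : Measure ℝ) [IsProbabilityMeasure μ] (a b : ℝ)
    (_ha : IsLeast μ.support a) (hb : IsGreatest μ.support b)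
    [∀ N : ℕ, MeasurableSpace (Matrix.orthogonalGroup (Fin N) ℝ)]
    [∀ N : ℕ, BorelSpace (Matrix.orthogonalGroup (Fin N) ℝ)]
    (ν : ∀ N : ℕ, Measure (Matrix.orthogonalGroup (Fin N) ℝ))
    [∀ N : ℕ, IsProbabilityMeasure (ν N)] [∀ N : ℕ, (ν N).IsHaarMeasure]
    (β : ℝ) (hβ : 0 ≤ β) (lam lam' : ∀ N : ℕ, Fin N → ℝ)
    (h : Admissible μ a b lam) (h' : Admissible μ a b lam') :
    Tendsto (fun N : ℕ => avgPressure (ν N) β (lam N) - avgPressure (ν N) β (lam' N))
      atTop (𝓝 0) :=
  avg_diff_tendsto hb ν hβ h h'
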