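import Mathlib
import Vale.Agent.Lib.P166.Compare

open MeasureTheory Filter Topology Vale.Agent.Lib.P166

/-- Comparison principle. The Haar averaged pressure is monotone for weak majorization of the
spectrum at every finite `N`, and, asymptotically, for the increasing convex order of the limiting
spectral measures. The case `μ = μ'`, used in both directions, says that the averaged pressure
depends asymptotically only on `(β, μ)`. -/
theorem Vale.Agent.Results.P166.B_convex_order.result
    [∀ N : ℕ, MeasurableSpace (Matrix.orthogonalGroup (Fin N) ℝ)]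
    [∀ N : ℕ, BorelSpace (Matrix.orthogonalGroup (Fin N) ℝ)]
    (ν : ∀ N : ℕ, Measure (Matrix.orthogonalGroup (Fin N) ℝ))
    [∀ N : ℕ, IsProbabilityMeasure (ν N)] [∀ N : ℕ, (ν N).IsHaarMeasure]
    (β : ℝ) (hβ : 0 ≤ β) :
    (∀ (N : ℕ) (x y : Fin N → ℝ), (∀ c : ℝ, ∑ i, max (x i - c) 0 ≤ ∑ i, max (y i - c) 0) →
      avgPressure (ν N) β x ≤ avgPressure (ν N) β y) ∧
    (∀ (μ μ' : Measure ℝ) [IsProbabilityMeasure μ] [IsProbabilityMeasure μ'] (a b a' b' : ℝ)
      (lam lam' : ∀ N : ℕ, Fin N → ℝ),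
      IsLeast μ.support a → IsGreatest μ.support b →
      IsLeast μ'.support a' → IsGreatest μ'.support b' →
      (∀ c : ℝ, ∫ t, max (t - c) 0 ∂μ ≤ ∫ t, max (t - c) 0 ∂μ') →
      Admissible μ a b lam → Admissible μ' a' b' lam' →
      ∀ ε : ℝ, 0 < ε → ∀ᶠ N : ℕ in atTop,
        avgPressure (ν N) β (lam N) ≤ avgPressure (ν N) β (lam' N) + ε) := by
  refine ⟨fun N x y h => avg_le_of_levels (ν N) hβ x y h, ?_⟩
  intro μ μ' _ _ a b a' b' lam lam' _ hb _ hb' horder h h' ε hε
  exact avg_cmp hb hb' horder ν hβ h h' hε
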